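import Vale.Agent.P126.Geometry

open scoped Pointwise

open Vale.Agent.P126 in
/-- The duality conjecture for metric entropy is false. -/
theorem Vale.Agent.Results.P126.Disproof.result :
    ¬ ∃ a b : ℝ, 1 ≤ a ∧ 1 ≤ b ∧
      ∀ n : ℕ, 1 ≤ n → ∀ K L : Set (EuclideanSpace ℝ (Fin n)), IsSymmBody K → IsSymmBody L →
        (1 / b) * Real.log (coverNum (polarSet L) (a • polarSet K)) ≤ Real.log (coverNum K L) ∧
        Real.log (coverNum K L) ≤ b * Real.log (coverNum (polarSet L) (a⁻¹ • polarSet K)) := by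
  rintro ⟨a, b, ha, hb, h⟩
  obtain ⟨n, hn, K, hK, hlt⟩ := right_fails a b ha hb
  exact absurd (h n hn K (cube n 1) hK (isSymmBody_cube one_pos)).2 (not_le.mpr hlt)
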