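import Vale.Agent.P126.Polar

open scoped Pointwise

open Vale.Agent.P126 in
/-- Each of the two inequalities of the duality conjecture fails separately, already when one body
is the cube or the cross-polytope; all covering numbers are attained minima. -/
theorem Vale.Agent.Results.P126.Strong.result :
    (∀ a b : ℝ, 1 ≤ a → 1 ≤ b → ∃ n : ℕ, 1 ≤ n ∧ ∃ K L : Set (EuclideanSpace ℝ (Fin n)),
      IsSymmBody K ∧ IsSymmBody L ∧ L = {v | ∀ i, |v i| ≤ 1} ∧
      b * Real.log (coverNum (polarSet L) (a⁻¹ • polarSet K)) < Real.log (coverNum K L)) ∧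
    (∀ a b : ℝ, 1 ≤ a → 1 ≤ b → ∃ n : ℕ, 1 ≤ n ∧ ∃ K L : Set (EuclideanSpace ℝ (Fin n)),
      IsSymmBody K ∧ IsSymmBody L ∧ K = {v | ∑ i, |v i| ≤ 1} ∧
      Real.log (coverNum K L) < (1 / b) * Real.log (coverNum (polarSet L) (a • polarSet K))) ∧
    (∀ (n : ℕ) (K L : Set (EuclideanSpace ℝ (Fin n))), IsSymmBody K → IsSymmBody L →
      (∀ c : ℝ, 0 < c → IsSymmBody (c • polarSet K)) ∧ IsSymmBody (polarSet L) ∧
      ∃ s : Finset (EuclideanSpace ℝ (Fin n)), s.card = coverNum K L ∧ K ⊆ ⋃ x ∈ s, x +ᵥ L) ∧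
    ¬ ∃ a b : ℝ, 1 ≤ a ∧ 1 ≤ b ∧
      ∀ n : ℕ, 1 ≤ n → ∀ K L : Set (EuclideanSpace ℝ (Fin n)), IsSymmBody K → IsSymmBody L →
        (1 / b) * Real.log (coverNum (polarSet L) (a • polarSet K)) ≤ Real.log (coverNum K L) ∧
        Real.log (coverNum K L) ≤ b * Real.log (coverNum (polarSet L) (a⁻¹ • polarSet K)) := by
  refine ⟨fun a b ha hb => ?_, fun a b ha hb => ?_, fun n K L hK hL => ?_, ?_⟩
  · obtain ⟨n, hn, K, hK, hlt⟩ := right_fails a b ha hb
    exact ⟨n, hn, K, cube n 1, hK, isSymmBody_cube one_pos, rfl, hlt⟩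
  · obtain ⟨n, hn, L, hL, hlt⟩ := left_fails a b ha hb
    exact ⟨n, hn, polarSet (cube n 1), L, (isSymmBody_cube one_pos).polar, hL, polarSet_cube n,
      hlt⟩
  · exact ⟨fun c hc => hK.polar.smul hc.ne', hL.polar, exists_cover hK.1 hL.zero_mem_interior⟩
  · rintro ⟨a, b, ha, hb, h⟩
    obtain ⟨n, hn, K, hK, hlt⟩ := right_fails a b ha hb
    exact absurd (h n hn K (cube n 1) hK (isSymmBody_cube one_pos)).2 (not_le.mpr hlt)
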